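import Mathlib

/-! Statement definitions for P271 (Fujita's freeness conjecture).

An irreducible projective variety `X ⊆ ℙ^N` is given by its function field `K` and the homogeneous
coordinates `t 0, …, t N ∈ K` of its generic point. -/

open MvPolynomial

namespace Vale.Agent.P271

variable {K : Type} [Field K] [Algebra ℂ K] {N : ℕ}

/-- `K` is the function field: `t ≠ 0` and every element of `K` is a quotient of two forms of the
same degree evaluated at `t`. -/
def IsFunctionField (t : Fin (N + 1) → K) : Prop :=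
  t ≠ 0 ∧ ∀ a : K, ∃ (d : ℕ) (P Q : MvPolynomial (Fin (N + 1)) ℂ),
    P.IsHomogeneous d ∧ Q.IsHomogeneous d ∧ aeval t Q ≠ 0 ∧ a * aeval t Q = aeval t P

/-- `v` is a vector of homogeneous coordinates of a point of `X`: every form vanishing at the
generic point vanishes at `v`. -/
def OnX (t : Fin (N + 1) → K) (v : Fin (N + 1) → ℂ) : Prop :=
  v ≠ 0 ∧ ∀ (d : ℕ) (P : MvPolynomial (Fin (N + 1)) ℂ),
    P.IsHomogeneous d → aeval t P = 0 → eval v P = 0

/-- The local ring of `X` at `v`: quotients `P / Q` of forms of the same degree with `Q v ≠ 0`. -/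
def locRing (t : Fin (N + 1) → K) (v : Fin (N + 1) → ℂ) : Subalgebra ℂ K :=
  Algebra.adjoin ℂ {a | ∃ (d : ℕ) (P Q : MvPolynomial (Fin (N + 1)) ℂ),
    P.IsHomogeneous d ∧ Q.IsHomogeneous d ∧ eval v Q ≠ 0 ∧ a * aeval t Q = aeval t P}

/-- `X` has dimension `n` and is smooth (Jacobian criterion): at every point, `N - n` forms of the
ideal of `X` have linearly independent gradients. -/
def IsSmoothOfDim (t : Fin (N + 1) → K) (n : ℕ) : Prop :=
  Algebra.trdeg ℂ K = n ∧ ∀ v, OnX t v →
    ∃ (r : ℕ) (F : Fin r → MvPolynomial (Fin (N + 1)) ℂ), n + r = N ∧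
      (∀ i, (∃ d, (F i).IsHomogeneous d) ∧ aeval t (F i) = 0) ∧
      LinearIndependent ℂ fun i j => eval v (pderiv j (F i))

/-- A line bundle on `X` as an invertible subsheaf of the constant sheaf `K` (Cartier divisor): a
cover by the open sets `Q i ≠ 0`, with a generator `e i` on each; ratios of generators are regular
on overlaps. -/
structure LineBundle (t : Fin (N + 1) → K) where
  r : ℕ
  Q : Fin r → MvPolynomial (Fin (N + 1)) ℂ
  homog : ∀ i, ∃ d, (Q i).IsHomogeneous d
  cover : ∀ v, OnX t v → ∃ i, eval v (Q i) ≠ 0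
  e : Fin r → K
  e_ne : ∀ i, e i ≠ 0
  compat : ∀ v, OnX t v → ∀ i j, eval v (Q i) ≠ 0 → eval v (Q j) ≠ 0 → e i / e j ∈ locRing t v

/-- `L ^ p` is isomorphic to the hyperplane bundle `𝒪_X(1)`, whose stalks are generated by the
coordinates `t j`. -/
def LineBundle.PowIsHyperplane {t : Fin (N + 1) → K} (L : LineBundle t) (p : ℕ) : Prop :=
  ∃ u : K, u ≠ 0 ∧ ∀ v, OnX t v → ∀ i, eval v (L.Q i) ≠ 0 →
    Submodule.span (locRing t v) {L.e i ^ p} =
      Submodule.span (locRing t v) (Set.range fun j => u * t j)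

/-- The submodule spanned by `S` over the subring `O`. -/
def spanOver (O : Subalgebra ℂ K) {W : Type} [AddCommGroup W] [Module K W] (S : Set W) : Set W :=
  Submodule.span O S

variable {M : Type} [AddCommGroup M] [Module K M]

/-- The form `e • d φ₁ ∧ ⋯ ∧ d φₙ`. -/
noncomputable def topForm (d : K → M) {n : ℕ} (e : K) (φ : Fin n → K) : ExteriorAlgebra K M :=
  e • ExteriorAlgebra.ιMulti K n fun i => d (φ i)

/-- The span over `O` of the forms `e • d φ₁ ∧ ⋯ ∧ d φₙ` with `φ i ∈ O`. For `d` the universal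
derivation, `O` the local ring at a point and `e = e₀ ^ m` with `e₀` a local generator of `L`, this
is the stalk of `K_X + m L` inside the rational `n`-forms. -/
noncomputable def formStalk (d : K → M) (O : Subalgebra ℂ K) (n : ℕ) (e : K) :
    Set (ExteriorAlgebra K M) :=
  spanOver O {η | ∃ φ : Fin n → K, (∀ i, φ i ∈ O) ∧ η = topForm d e φ}

/-- `η` is a global section of `K_X + m L`: it lies in every stalk. -/
def LineBundle.IsSection {t : Fin (N + 1) → K} (L : LineBundle t) (d : K → M) (n m : ℕ)
    (η : ExteriorAlgebra K M) : Prop :=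
  ∀ v, OnX t v → ∀ i, eval v (L.Q i) ≠ 0 → η ∈ formStalk d (locRing t v) n (L.e i ^ m)

/-- `K_X + m L` is globally generated: at every point some global section generates the stalk. -/
def LineBundle.AdjointFree {t : Fin (N + 1) → K} (L : LineBundle t) (d : K → M) (n m : ℕ) : Prop :=
  ∀ v, OnX t v → ∀ i, eval v (L.Q i) ≠ 0 → ∃ η, L.IsSection d n m η ∧
    spanOver (locRing t v) {η} = formStalk d (locRing t v) n (L.e i ^ m)

end Vale.Agent.P271
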