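import Vale.Agent.P271.Stmt

/-! P271: ampleness through an arbitrary projective embedding. -/

open MvPolynomial

namespace Vale.Agent.P271

variable {K : Type} [Field K] [Algebra ℂ K] {N : ℕ}

/-- The projective varieties with generic points `t` and `s` have the same local rings inside `K`:
`s` defines a closed embedding of the variety given by `t`. -/
def SameVariety {N' : ℕ} (t : Fin (N + 1) → K) (s : Fin (N' + 1) → K) : Prop :=
  IsFunctionField s ∧ (∀ v, OnX t v → ∃ w, OnX s w ∧ locRing s w = locRing t v) ∧
    ∀ w, OnX s w → ∃ v, OnX t v ∧ locRing t v = locRing s w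

/-- `L` is ample: some power `L ^ p`, `p ≥ 1`, is generated at every point by sections
`s 0, …, s N'` that define a closed embedding into projective space. -/
def LineBundle.IsAmple {t : Fin (N + 1) → K} (L : LineBundle t) : Prop :=
  ∃ (p N' : ℕ) (s : Fin (N' + 1) → K), 1 ≤ p ∧ SameVariety t s ∧
    ∀ v, OnX t v → ∀ i, eval v (L.Q i) ≠ 0 →
      spanOver (locRing t v) {L.e i ^ p} = spanOver (locRing t v) (Set.range s)

end Vale.Agent.P271
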